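import Vale.Agent.P080.Final

/-!
# P080: infinity-harmonic functions are `C^{1,α}` in every dimension
-/

namespace Vale.Agent.Results.P080.Full

open Metric Vale.Agent.P080
open scoped Gradient

/-- For every dimension `d` there are `α > 0` and `C > 0` such that every infinity-harmonic
function `u` on an open set `Ω ⊆ ℝ^d` is continuously differentiable on `Ω`, and on every ball
`B(x0, r) ⊆ Ω` on which the oscillation of `u` is at most `M` the gradient satisfies, on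
`B(x0, r/2)`, the bounds `|∇u x| ≤ C M / r` and `|∇u x - ∇u y| ≤ C (M / r) (|x - y| / r)^α`. -/
theorem result (d : ℕ) : ∃ α C : ℝ, 0 < α ∧ 0 < C ∧
    ∀ (Ω : Set (EuclideanSpace ℝ (Fin d))) (u : EuclideanSpace ℝ (Fin d) → ℝ),
      IsOpen Ω → IsInfHarmonic Ω u →
      ContDiffOn ℝ 1 u Ω ∧
      ∀ (x0 : EuclideanSpace ℝ (Fin d)) (r M : ℝ), 0 < r → ball x0 r ⊆ Ω →
        (∀ y ∈ ball x0 r, ∀ z ∈ ball x0 r, u y - u z ≤ M) →
        (∀ x ∈ ball x0 (r / 2), ‖∇ u x‖ ≤ C * (M / r)) ∧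
        ∀ x ∈ ball x0 (r / 2), ∀ y ∈ ball x0 (r / 2),
          ‖∇ u x - ∇ u y‖ ≤ C * (M / r) * (‖x - y‖ / r) ^ α :=
  final d

end Vale.Agent.Results.P080.Full
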